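import Mathlib

namespace Vale.Agent.P195

universe u w

section Cover

variable {R : Type u} [Ring R]

theorem semisimple_of_torsion [IsSemiprimaryRing R] (M : Type w) [AddCommGroup M] [Module R M]
    (h : Module.IsTorsionBySet R M (Ring.jacobson R)) : IsSemisimpleModule R M := by
  let _ := h.module
  exact (h.semilinearMap.isSemisimpleModule_iff_of_bijective Function.bijective_id).2
    inferInstance

theorem semisimple_quot [IsSemiprimaryRing R] (M : Type w) [AddCommGroup M] [Module R M] :
    IsSemisimpleModule R (M ⧸ (Ring.jacobson R • (⊤ : Submodule R M))) := by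
  apply semisimple_of_torsion
  rw [Module.isTorsionBySet_quotient_iff]
  exact fun m i hi ↦ Submodule.smul_mem_smul hi trivial

/-- A superfluous submodule of a module over a semiprimary ring lies in `J M`. -/
theorem le_of_superfluous [IsSemiprimaryRing R] (M : Type w) [AddCommGroup M] [Module R M]
    (S : Submodule R M) (hS : ∀ L : Submodule R M, L ⊔ S = ⊤ → L = ⊤) :
    S ≤ Ring.jacobson R • (⊤ : Submodule R M) := by
  set JM := Ring.jacobson R • (⊤ : Submodule R M) with hJM
  have : IsSemisimpleModule R (M ⧸ JM) := semisimple_quot M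
  obtain ⟨C, hC⟩ := exists_isCompl (S.map JM.mkQ)
  have h1 : C.comap JM.mkQ ⊔ S = ⊤ := by
    rw [eq_top_iff]
    intro x _
    have hx : JM.mkQ x ∈ C ⊔ S.map JM.mkQ := by
      rw [sup_comm, hC.sup_eq_top]; trivial
    obtain ⟨c, hc, y, hy, hcy⟩ := Submodule.mem_sup.mp hx
    obtain ⟨s, hs, rfl⟩ := hy
    refine Submodule.mem_sup.mpr ⟨x - s, ?_, s, hs, by abel⟩
    have : JM.mkQ (x - s) = c := by rw [map_sub, ← hcy]; abel
    simpa [this] using hc
  have h2 := hS _ h1
  have h3 : C = ⊤ := by
    rw [eq_top_iff]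
    intro y _
    obtain ⟨x, rfl⟩ := JM.mkQ_surjective y
    have : x ∈ C.comap JM.mkQ := by rw [h2]; trivial
    exact this
  have h4 : S.map JM.mkQ = ⊥ := by
    have := hC.inf_eq_bot
    rwa [h3, inf_top_eq] at this
  rw [← LinearMap.le_ker_iff_map, Submodule.ker_mkQ] at h4
  exact h4

variable [IsArtinianRing R]

theorem exists_cover (X : Type w) [AddCommGroup X] [Module R X] [Module.Finite R X] :
    ∃ (P : Type u) (_ : AddCommGroup P) (_ : Module R P) (π : P →ₗ[R] X),
      Module.Finite R P ∧ Module.Projective R P ∧ Function.Surjective π ∧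
      LinearMap.ker π ≤ Ring.jacobson R • (⊤ : Submodule R P) := by
  obtain ⟨n, π₀, hπ₀⟩ := Module.Finite.exists_fin' R X
  let F := Fin n → R
  let S : Set (Submodule R F) := {L | L.map π₀ = ⊤}
  have hSne : S.Nonempty := ⟨⊤, by
    change Submodule.map π₀ ⊤ = ⊤
    rw [Submodule.map_top]
    exact LinearMap.range_eq_top.mpr hπ₀⟩
  obtain ⟨L, hL, hmin⟩ := IsArtinian.set_has_minimal S hSne
  have hmin' : ∀ L' : Submodule R F, L' ≤ L → L'.map π₀ = ⊤ → L' = L := by
    intro L' h1 h2
    by_contra hne
    exact hmin L' h2 (lt_of_le_of_ne h1 hne)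
  let π : L →ₗ[R] X := π₀.domRestrict L
  have hπ : Function.Surjective π := by
    intro x
    have : x ∈ L.map π₀ := by rw [hL]; trivial
    obtain ⟨y, hy, rfl⟩ := this
    exact ⟨⟨y, hy⟩, rfl⟩
  -- a submodule of `L` mapping onto `X` is everything
  have key : ∀ K : Submodule R L, K.map π = ⊤ → K = ⊤ := by
    intro K hK
    have h1 : K.map L.subtype = L := by
      apply hmin' _ (Submodule.map_subtype_le L K)
      rw [← Submodule.map_comp]
      exact hK
    rw [eq_top_iff]
    intro x _
    have : (x : F) ∈ K.map L.subtype := by rw [h1]; exact x.2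
    obtain ⟨y, hy, hyx⟩ := this
    have : y = x := Subtype.ext hyx
    exact this ▸ hy
  refine ⟨L, inferInstance, inferInstance, π, inferInstance, ?_, hπ, ?_⟩
  · obtain ⟨h, hh⟩ := Module.projective_lifting_property π π₀ hπ
    let φ : L →ₗ[R] L := h ∘ₗ L.subtype
    have hφ : π ∘ₗ φ = π := by
      ext x
      have := congrArg (fun f => f (x : F)) hh
      simpa [φ, π] using this
    have hφs : Function.Surjective φ := by
      rw [← LinearMap.range_eq_top]
      apply key
      rw [← LinearMap.range_comp, hφ]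
      exact LinearMap.range_eq_top.mpr hπ
    have hφb : Function.Bijective φ :=
      IsNoetherian.bijective_of_surjective_endomorphism φ hφs
    let e := LinearEquiv.ofBijective φ hφb
    refine Module.Projective.of_split (P := L) (M := F) L.subtype (e.symm.toLinearMap ∘ₗ h) ?_
    refine LinearMap.ext fun x => ?_
    exact e.symm_apply_apply x
  · apply le_of_superfluous
    intro K hK
    apply key
    rw [eq_top_iff]
    intro x _
    obtain ⟨y, rfl⟩ := hπ x
    have : y ∈ K ⊔ LinearMap.ker π := by rw [hK]; trivial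
    obtain ⟨a, ha, b, hb, rfl⟩ := Submodule.mem_sup.mp this
    refine ⟨a, ha, ?_⟩
    rw [map_add, LinearMap.mem_ker.mp hb, add_zero]

end Cover

end Vale.Agent.P195
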