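import Mathlib

namespace Vale.Agent.P195

universe u w

/-- A module is indecomposable if it is nonzero and is not the direct sum of two nonzero
submodules. -/
def Indec (A : Type u) [Ring A] (N : Type w) [AddCommGroup N] [Module A N] : Prop :=
  Nontrivial N ∧ ∀ U V : Submodule A N, IsCompl U V → U = ⊥ ∨ V = ⊥

/-- A ring `A` is torsionless-finite if only finitely many isomorphism classes of indecomposable
modules occur as submodules of the free modules `A^m`, `m ≥ 0`. -/
def TorsionlessFinite (A : Type u) [Ring A] : Prop :=
  ∃ (n : ℕ) (X : Fin n → ModuleCat.{u} A), ∀ (m : ℕ) (N : Submodule A (Fin m → A)),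
    Indec A N → ∃ i, Nonempty (N ≃ₗ[A] X i)

end Vale.Agent.P195
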