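import Vale.Agent.P195.Main
import Vale.Agent.P195.TorsionlessDef

namespace Vale.Agent.P195

open CategoryTheory Abelian

universe u v w w₁ w₂

section

variable (k : Type v) [CommRing k] (R : Type u) [Ring R] [Algebra k R]
  [IsArtinianRing k] [Module.Finite k R]

/-- surjections in the first variable -/
theorem hl_le_of_surj {A : Type w} [AddCommGroup A] [Module R A] [Module.Finite R A]
    {A' : Type w₂} [AddCommGroup A'] [Module R A'] [Module.Finite R A']
    {B : Type w₁} [AddCommGroup B] [Module R B] [Module k B] [IsScalarTower k R B]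
    [Module.Finite R B] (p : A →ₗ[R] A') (hp : Function.Surjective p) :
    hl k R A' B ≤ hl k R A B := by
  have h1 := (hom_fin k R A B).1
  have h2 := (hom_fin k R A B).2
  have hinj : Function.Injective (LinearMap.lcomp k B p) := by
    intro f g hfg
    refine LinearMap.ext fun x => ?_
    obtain ⟨y, rfl⟩ := hp x
    exact LinearMap.congr_fun hfg y
  have h3 := Module.length_le_of_injective _ hinj
  rw [← coe_hl, ← coe_hl] at h3
  exact_mod_cast h3

theorem hl_eq_of_surj {A : Type w} [AddCommGroup A] [Module R A] [Module.Finite R A]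
    {A' : Type w₂} [AddCommGroup A'] [Module R A'] [Module.Finite R A']
    {B : Type w₁} [AddCommGroup B] [Module R B] [Module k B] [IsScalarTower k R B]
    [Module.Finite R B] (p : A →ₗ[R] A') (hp : Function.Surjective p)
    (hk : ∀ f : A →ₗ[R] B, LinearMap.ker p ≤ LinearMap.ker f) :
    hl k R A B = hl k R A' B := by
  let e' : (A' →ₗ[R] B) ≃ₗ[k] (A →ₗ[R] B) :=
    LinearEquiv.ofBijective (LinearMap.lcomp k B p) (by
      constructor
      · intro f g hfg
        refine LinearMap.ext fun x => ?_
        obtain ⟨y, rfl⟩ := hp x
        exact LinearMap.congr_fun hfg y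
      · intro f
        let e := p.quotKerEquivOfSurjective hp
        refine ⟨(LinearMap.ker p).liftQ f (hk f) ∘ₗ e.symm.toLinearMap, ?_⟩
        refine LinearMap.ext fun x => ?_
        have : e.symm (p x) = Submodule.Quotient.mk x := by
          rw [LinearEquiv.symm_apply_eq]; rfl
        simp [this])
  unfold hl
  rw [e'.length_eq]

theorem hl_congr_left {A : Type w} [AddCommGroup A] [Module R A] [Module.Finite R A]
    {A' : Type w₂} [AddCommGroup A'] [Module R A'] [Module.Finite R A']
    (B : Type w₁) [AddCommGroup B] [Module R B] [Module k B] [IsScalarTower k R B]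
    [Module.Finite R B] (e : A ≃ₗ[R] A') : hl k R A B = hl k R A' B := by
  apply hl_eq_of_surj k R e.toLinearMap e.surjective
  intro f x hx
  have : x = 0 := e.injective (by simpa using hx)
  rw [this]; exact Submodule.zero_mem _

theorem hl_compl {A : Type w} [AddCommGroup A] [Module R A] [Module.Finite R A]
    (B : Type w₁) [AddCommGroup B] [Module R B] [Module k B] [IsScalarTower k R B]
    [Module.Finite R B] (U V : Submodule R A) (h : IsCompl U V)
    (hU : Module.Finite R U) (hV : Module.Finite R V) :
    hl k R A B = hl k R V B + hl k R U B := by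
  refine hl_add_of_exact k R U.subtype (V.projectionOnto U h.symm) ?_ ?_ ?_
  · intro y
    exact ⟨y, Submodule.projectionOnto_apply_left _ y⟩
  · intro x
    rw [Submodule.projectionOnto_apply_eq_zero_iff]
    constructor
    · intro hx
      exact ⟨⟨x, hx⟩, rfl⟩
    · rintro ⟨y, rfl⟩
      exact y.2
  · intro f
    refine ⟨f ∘ₗ U.projectionOnto V h, LinearMap.ext fun x => ?_⟩
    simp

/-- Decomposition into indecomposables, counted through `Hom`. -/
theorem decomp_count {F : Type w} [AddCommGroup F] [Module R F] [IsNoetherian R F]
    [IsArtinian R F] {n : ℕ} (X : Fin n → Type w₂) [∀ i, AddCommGroup (X i)]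
    [∀ i, Module R (X i)] [∀ i, Module.Finite R (X i)]
    (hX : ∀ U : Submodule R F, Indec R U → ∃ i, Nonempty (U ≃ₗ[R] X i))
    (U : Submodule R F) :
    ∃ y : Fin n → ℕ, ∀ (B : Type w₁) [AddCommGroup B] [Module R B] [Module k B]
      [IsScalarTower k R B] [Module.Finite R B], hl k R U B = ∑ i, y i * hl k R (X i) B := by
  induction U using WellFoundedLT.induction with
  | ind U ih =>
    by_cases hnt : Nontrivial U
    · by_cases hind : Indec R U
      · obtain ⟨i, ⟨e⟩⟩ := hX U hind
        refine ⟨fun j => if j = i then 1 else 0, fun B _ _ _ _ _ => ?_⟩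
        rw [hl_congr_left k R B e]
        simp
      · have hex : ∃ U1 V1 : Submodule R U, IsCompl U1 V1 ∧ U1 ≠ ⊥ ∧ V1 ≠ ⊥ := by
          by_contra hcon
          push Not at hcon
          refine hind ⟨hnt, fun U1 V1 h => ?_⟩
          by_cases h1 : U1 = ⊥
          · exact Or.inl h1
          · exact Or.inr (hcon U1 V1 h h1)
        obtain ⟨U1, V1, hc, hU1, hV1⟩ := hex
        have hlt : ∀ W W' : Submodule R U, IsCompl W W' → W' ≠ ⊥ → W.map U.subtype < U := by
          intro W W' hW hW'
          refine lt_of_le_of_ne (Submodule.map_subtype_le U W) ?_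
          intro heq
          apply hW'
          have hWt : W = ⊤ := by
            apply Submodule.map_injective_of_injective U.injective_subtype
            rw [heq, Submodule.map_subtype_top]
          have := hW.inf_eq_bot
          rwa [hWt, top_inf_eq] at this
        obtain ⟨y1, hy1⟩ := ih _ (hlt U1 V1 hc hV1)
        obtain ⟨y2, hy2⟩ := ih _ (hlt V1 U1 hc.symm hU1)
        refine ⟨fun i => y2 i + y1 i, fun B _ _ _ _ _ => ?_⟩
        rw [hl_compl k R B U1 V1 hc inferInstance inferInstance,
          hl_congr_left k R B (U1.equivMapOfInjective U.subtype U.injective_subtype),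
          hl_congr_left k R B (V1.equivMapOfInjective U.subtype U.injective_subtype),
          hy1, hy2, ← Finset.sum_add_distrib]
        refine Finset.sum_congr rfl fun i _ => ?_
        ring
    · have hsub : Subsingleton U := not_nontrivial_iff_subsingleton.mp hnt
      refine ⟨0, fun B _ _ _ _ _ => ?_⟩
      have : Subsingleton (U →ₗ[R] B) := ⟨fun f g => LinearMap.ext fun x => by
        rw [Subsingleton.elim x 0, map_zero, map_zero]⟩
      unfold hl
      rw [Module.length_eq_zero]
      simp

end

end Vale.Agent.P195
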