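import Mathlib

namespace Vale.Agent.P195

open CategoryTheory Abelian

universe u

variable {R : Type u} [Ring R]

/-- dimension shift in the first variable -/
theorem ext_shift {P X : ModuleCat.{u} R} (π : P →ₗ[R] X) (hπ : Function.Surjective π)
    (hP : Module.Projective R P) (Y : ModuleCat.{u} R) (j : ℕ)
    (h : Subsingleton (Ext X Y (j + 2))) :
    Subsingleton (Ext (ModuleCat.of R (LinearMap.ker π)) Y (j + 1)) := by
  have hS := LinearMap.shortExact_shortComplexKer (f := π) hπ
  have : Projective P := (IsProjective.iff_projective (R := R) P).mp hP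
  refine subsingleton_of_forall_eq 0 fun x => ?_
  obtain ⟨y, hy⟩ := Ext.contravariant_sequence_exact₁ hS Y x (n₁ := j + 2) (by omega)
    (Subsingleton.elim _ _)
  have hy0 : y = 0 := Ext.eq_zero_of_projective (P := P) y
  rw [← hy, hy0, Ext.comp_zero]

/-- extension of maps from the kernel -/
theorem ext_extend {P X : ModuleCat.{u} R} (π : P →ₗ[R] X) (hπ : Function.Surjective π)
    (Y : ModuleCat.{u} R) (h : Subsingleton (Ext X Y 1)) (f : LinearMap.ker π →ₗ[R] Y) :
    ∃ g : P →ₗ[R] Y, ∀ x : LinearMap.ker π, g x = f x := by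
  have hS := LinearMap.shortExact_shortComplexKer (f := π) hπ
  obtain ⟨y, hy⟩ := Ext.contravariant_sequence_exact₁ hS Y
    (Ext.mk₀ (ModuleCat.ofHom f)) (n₁ := 1) (by omega) (Subsingleton.elim _ _)
  obtain ⟨g, rfl⟩ := (Ext.mk₀_bijective _ _).2 y
  rw [Ext.mk₀_comp_mk₀] at hy
  have h2 := (Ext.mk₀_bijective _ _).1 hy
  refine ⟨g.hom, fun x => ?_⟩
  have := congrArg (fun φ => φ.hom x) h2
  exact this

/-- dimension shift in the second variable -/
theorem ext_cov {P X : ModuleCat.{u} R} (π : P →ₗ[R] X) (hπ : Function.Surjective π)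
    (Z : ModuleCat.{u} R) (j : ℕ)
    (h1 : Subsingleton (Ext Z X j)) (h2 : Subsingleton (Ext Z P (j + 1))) :
    Subsingleton (Ext Z (ModuleCat.of R (LinearMap.ker π)) (j + 1)) := by
  have hS := LinearMap.shortExact_shortComplexKer (f := π) hπ
  refine subsingleton_of_forall_eq 0 fun x => ?_
  obtain ⟨y, hy⟩ := Ext.covariant_sequence_exact₁ Z hS x (@Subsingleton.elim _ h2 _ _)
    (n₀ := j) rfl
  have hy0 : y = 0 := @Subsingleton.elim _ h1 _ _
  rw [← hy, hy0, Ext.zero_comp]

/-- `Ext(Z, R) = 0` gives `Ext(Z, Q) = 0` for finitely generated projective `Q`. -/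
theorem ext_proj (Z : ModuleCat.{u} R) (j : ℕ)
    (h : Subsingleton (Ext Z (ModuleCat.of R R) j)) (Q : ModuleCat.{u} R)
    (hf : Module.Finite R Q) (hQ : Module.Projective R Q) :
    Subsingleton (Ext Z Q j) := by
  obtain ⟨n, f, g, -, -, hfg⟩ := Module.Finite.exists_comp_eq_id_of_projective R Q
  refine subsingleton_of_forall_eq 0 fun x => ?_
  have hid : 𝟙 Q = ∑ i : Fin n, (ModuleCat.ofHom (LinearMap.proj i ∘ₗ g) : Q ⟶ ModuleCat.of R R) ≫
      ModuleCat.ofHom (f ∘ₗ LinearMap.single R (fun _ => R) i) := by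
    ext q
    have h1 : g q = ∑ i, Pi.single i (g q i) := by
      exact (LinearMap.sum_single_apply _ _).symm
    have h2 : f (g q) = q := LinearMap.congr_fun hfg q
    conv_lhs => rw [ModuleCat.id_apply, ← h2, h1]
    simp [map_sum]
  rw [← Ext.comp_mk₀_id x, hid, Ext.mk₀_sum, Ext.comp_sum]
  refine Finset.sum_eq_zero fun i _ => ?_
  rw [← Ext.mk₀_comp_mk₀]
  rw [← Ext.comp_assoc (h₁₂ := add_zero j) (h₂₃ := add_zero 0) (h := by omega)]
  rw [@Subsingleton.elim _ h (x.comp _ _) 0, Ext.zero_comp]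

end Vale.Agent.P195
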