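import Mathlib

namespace Vale.Agent.P195

universe u v w w₁ w₂ w₃

section Len

variable (k : Type v) [CommRing k] (R : Type u) [Ring R] [Algebra k R]

/-- post-composition as a `k`-linear map -/
def postc (A : Type w) [AddCommGroup A] [Module R A]
    {B : Type w₁} [AddCommGroup B] [Module R B] [Module k B] [IsScalarTower k R B]
    {C : Type w₂} [AddCommGroup C] [Module R C] [Module k C] [IsScalarTower k R C]
    (f : B →ₗ[R] C) : (A →ₗ[R] B) →ₗ[k] (A →ₗ[R] C) where
  toFun g := f ∘ₗ g
  map_add' g h := LinearMap.comp_add _ _ _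
  map_smul' c g := by
    ext x
    simp [LinearMap.map_smul_of_tower]

/-- the length over `k` of `Hom_R(A,B)` -/
noncomputable def hl (A : Type w) [AddCommGroup A] [Module R A]
    (B : Type w₁) [AddCommGroup B] [Module R B] [Module k B] [IsScalarTower k R B] : ℕ :=
  (Module.length k (A →ₗ[R] B)).toNat

variable [IsArtinianRing k] [Module.Finite k R]

section fin

variable (A : Type w) [AddCommGroup A] [Module R A] [Module.Finite R A]
    (B : Type w₁) [AddCommGroup B] [Module R B] [Module k B] [IsScalarTower k R B]
    [Module.Finite R B]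

theorem hom_fin : IsArtinian k (A →ₗ[R] B) ∧ IsNoetherian k (A →ₗ[R] B) := by
  obtain ⟨n, s, hs⟩ := Module.Finite.exists_fin' R A
  have : Module.Finite k B := Module.Finite.trans R B
  let ev : (A →ₗ[R] B) →ₗ[k] (Fin n → B) :=
    { toFun := fun g i => g (s (Pi.single i 1))
      map_add' := fun g h => by ext i; simp
      map_smul' := fun c g => by ext i; simp }
  have hev : Function.Injective ev := by
    intro g h hgh
    have : g ∘ₗ s = h ∘ₗ s := by
      refine LinearMap.pi_ext' fun i => LinearMap.ext_ring ?_
      exact congrFun hgh i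
    refine LinearMap.ext fun x => ?_
    obtain ⟨y, rfl⟩ := hs x
    exact LinearMap.congr_fun this y
  exact ⟨isArtinian_of_injective ev hev, isNoetherian_of_injective ev hev⟩

theorem len_ne_top : Module.length k (A →ₗ[R] B) ≠ ⊤ := by
  have := (hom_fin k R A B).1
  have := (hom_fin k R A B).2
  exact Module.length_ne_top

theorem coe_hl : ((hl k R A B : ℕ) : ℕ∞) = Module.length k (A →ₗ[R] B) :=
  ENat.coe_toNat (len_ne_top k R A B)

end fin

/-- length formula from an exact sequence of Hom spaces -/
theorem hl_add_of_exact
    {A : Type w} [AddCommGroup A] [Module R A] [Module.Finite R A]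
    {A' : Type w₂} [AddCommGroup A'] [Module R A'] [Module.Finite R A']
    {A'' : Type w₃} [AddCommGroup A''] [Module R A''] [Module.Finite R A'']
    {B : Type w₁} [AddCommGroup B] [Module R B] [Module k B] [IsScalarTower k R B]
    [Module.Finite R B]
    (i : A' →ₗ[R] A) (p : A →ₗ[R] A'') (hp : Function.Surjective p) (hex : Function.Exact i p)
    (hext : ∀ f : A' →ₗ[R] B, ∃ g : A →ₗ[R] B, g ∘ₗ i = f) :
    hl k R A B = hl k R A'' B + hl k R A' B := by
  have h := Module.length_eq_add_of_exact (R := k) (LinearMap.lcomp k B p)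
    (LinearMap.lcomp k B i) ?_ ?_ ?_
  · rw [← coe_hl, ← coe_hl, ← coe_hl] at h
    exact_mod_cast h
  · intro f g hfg
    refine LinearMap.ext fun x => ?_
    obtain ⟨y, rfl⟩ := hp x
    exact LinearMap.congr_fun hfg y
  · intro f
    obtain ⟨g, hg⟩ := hext f
    exact ⟨g, hg⟩
  · intro f
    constructor
    · intro hf
      have hker : LinearMap.ker p ≤ LinearMap.ker f := by
        intro x hx
        obtain ⟨y, rfl⟩ := (hex x).mp hx
        exact LinearMap.congr_fun hf y
      let e := p.quotKerEquivOfSurjective hp
      refine ⟨(LinearMap.ker p).liftQ f hker ∘ₗ e.symm.toLinearMap, ?_⟩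
      refine LinearMap.ext fun x => ?_
      have : e.symm (p x) = Submodule.Quotient.mk x := by
        rw [LinearEquiv.symm_apply_eq]; rfl
      simp [this]
    · rintro ⟨g, rfl⟩
      refine LinearMap.ext fun x => ?_
      change g (p (i x)) = 0
      rw [(hex (i x)).mpr ⟨x, rfl⟩, map_zero]

theorem hl_congr_right
    (A : Type w) [AddCommGroup A] [Module R A] [Module.Finite R A]
    {B : Type w₁} [AddCommGroup B] [Module R B] [Module k B] [IsScalarTower k R B]
    [Module.Finite R B]
    {C : Type w₂} [AddCommGroup C] [Module R C] [Module k C] [IsScalarTower k R C]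
    [Module.Finite R C] (e : B ≃ₗ[R] C) : hl k R A B = hl k R A C := by
  let e' : (A →ₗ[R] B) ≃ₗ[k] (A →ₗ[R] C) :=
    LinearEquiv.ofBijective (postc k R A e.toLinearMap) (by
      constructor
      · intro f g hfg
        refine LinearMap.ext fun x => e.injective (LinearMap.congr_fun hfg x)
      · intro f
        refine ⟨e.symm.toLinearMap ∘ₗ f, ?_⟩
        refine LinearMap.ext fun x => ?_
        exact e.apply_symm_apply _)
  unfold hl
  rw [e'.length_eq]

/-- additivity in the second variable, if maps lift -/
theorem hl_add_right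
    (A : Type w) [AddCommGroup A] [Module R A] [Module.Finite R A]
    {B : Type w₁} [AddCommGroup B] [Module R B] [Module k B] [IsScalarTower k R B]
    [Module.Finite R B] (N : Submodule R B)
    (hlift : ∀ f : A →ₗ[R] (B ⧸ N), ∃ g : A →ₗ[R] B, N.mkQ ∘ₗ g = f) :
    hl k R A B = hl k R A N + hl k R A (B ⧸ N) := by
  have : IsNoetherian k B := by
    have : Module.Finite k B := Module.Finite.trans R B
    infer_instance
  have : IsNoetherian R B := isNoetherian_of_tower k this
  have h := Module.length_eq_add_of_exact (R := k) (postc k R A N.subtype)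
    (postc k R A N.mkQ) ?_ ?_ ?_
  · rw [← coe_hl, ← coe_hl, ← coe_hl] at h
    exact_mod_cast h
  · intro f g hfg
    refine LinearMap.ext fun x => Subtype.ext (LinearMap.congr_fun hfg x)
  · intro f
    obtain ⟨g, hg⟩ := hlift f
    exact ⟨g, hg⟩
  · intro f
    constructor
    · intro hf
      have hmem : ∀ x, f x ∈ N := by
        intro x
        have := LinearMap.congr_fun hf x
        exact (Submodule.Quotient.mk_eq_zero N).mp this
      exact ⟨f.codRestrict N hmem, LinearMap.ext fun x => rfl⟩
    · rintro ⟨g, rfl⟩
      refine LinearMap.ext fun x => ?_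
      exact (Submodule.Quotient.mk_eq_zero N).mpr (g x).2

/-- if all maps into `B` land in `N`, the lengths agree -/
theorem hl_eq_of_range
    (A : Type w) [AddCommGroup A] [Module R A] [Module.Finite R A]
    {B : Type w₁} [AddCommGroup B] [Module R B] [Module k B] [IsScalarTower k R B]
    [Module.Finite R B] (N : Submodule R B)
    (h : ∀ f : A →ₗ[R] B, ∀ x, f x ∈ N) :
    hl k R A B = hl k R A N := by
  let e' : (A →ₗ[R] N) ≃ₗ[k] (A →ₗ[R] B) :=
    LinearEquiv.ofBijective (postc k R A N.subtype) (by
      constructor
      · intro f g hfg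
        refine LinearMap.ext fun x => Subtype.ext (LinearMap.congr_fun hfg x)
      · intro f
        exact ⟨f.codRestrict N (h f), LinearMap.ext fun x => rfl⟩)
  unfold hl
  rw [e'.length_eq]

/-- strictness -/
theorem hl_lt
    (A : Type w) [AddCommGroup A] [Module R A] [Module.Finite R A]
    {B : Type w₁} [AddCommGroup B] [Module R B] [Module k B] [IsScalarTower k R B]
    [Module.Finite R B] (N : Submodule R B)
    (f₀ : A →ₗ[R] B) (x₀ : A) (h : f₀ x₀ ∉ N) :
    hl k R A N < hl k R A B := by
  have : IsNoetherian k B := by
    have : Module.Finite k B := Module.Finite.trans R B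
    infer_instance
  have : IsNoetherian R B := isNoetherian_of_tower k this
  have h1 := (hom_fin k R A B).1
  have h2 := (hom_fin k R A B).2
  have hinj : Function.Injective (postc k R A N.subtype) := by
    intro f g hfg
    refine LinearMap.ext fun x => Subtype.ext (LinearMap.congr_fun hfg x)
  have hne : LinearMap.range (postc k R A N.subtype) ≠ ⊤ := by
    intro htop
    have : f₀ ∈ LinearMap.range (postc k R A N.subtype) := by rw [htop]; trivial
    obtain ⟨g, hg⟩ := this
    apply h
    rw [← hg]
    exact (g x₀).2
  have h3 := Submodule.length_lt hne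
  rw [← (LinearEquiv.ofInjective _ hinj).length_eq, ← coe_hl, ← coe_hl] at h3
  exact_mod_cast h3

end Len

end Vale.Agent.P195
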