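import Vale.Agent.P195.Len

namespace Vale.Agent.P195

open CategoryTheory

universe u v w

section Simples

variable {R : Type u} [Ring R]

theorem simple_list (N : Type u) [AddCommGroup N] [Module R N] (h : IsFiniteLength R N) :
    ∃ L : List (ModuleCat.{u} R), (∀ S ∈ L, IsSimpleModule R S) ∧
      ∀ (T : Type w) [AddCommGroup T] [Module R T] [IsSimpleModule R T] (f : N →ₗ[R] T),
        f ≠ 0 → ∃ S ∈ L, Nonempty (T ≃ₗ[R] S) := by
  induction h with
  | @of_subsingleton N _ _ _ =>
    refine ⟨[], by simp, ?_⟩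
    intro T _ _ _ f hf
    exact absurd (LinearMap.ext fun x => by rw [Subsingleton.elim x 0, map_zero, map_zero]) hf
  | @of_simple_quotient N _ _ N' hN' h' ih =>
    obtain ⟨L, hL, hL'⟩ := ih
    refine ⟨ModuleCat.of R (N ⧸ N') :: L, ?_, ?_⟩
    · intro S hS
      rcases List.mem_cons.mp hS with rfl | hS
      · exact hN'
      · exact hL S hS
    · intro T _ _ _ f hf
      by_cases h0 : f ∘ₗ N'.subtype = 0
      · have hle : N' ≤ LinearMap.ker f := by
          intro x hx
          exact LinearMap.congr_fun h0 ⟨x, hx⟩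
        let g : (N ⧸ N') →ₗ[R] T := N'.liftQ f hle
        have hg : g ≠ 0 := by
          intro h
          apply hf
          refine LinearMap.ext fun x => ?_
          exact LinearMap.congr_fun h (N'.mkQ x)
        have hb : Function.Bijective g := LinearMap.bijective_of_ne_zero hg
        exact ⟨_, List.mem_cons_self, ⟨(LinearEquiv.ofBijective g hb).symm⟩⟩
      · obtain ⟨S, hS, e⟩ := hL' T _ h0
        exact ⟨S, List.mem_cons_of_mem _ hS, e⟩

theorem simple_fin (R : Type u) [Ring R] [IsArtinianRing R] :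
    ∃ (n : ℕ) (S : Fin n → ModuleCat.{u} R), (∀ i, IsSimpleModule R (S i)) ∧
      ∀ (T : Type w) [AddCommGroup T] [Module R T] [IsSimpleModule R T],
        ∃ i, Nonempty (T ≃ₗ[R] S i) := by
  obtain ⟨L, hL, hL'⟩ := simple_list.{u, w} (R := R) R
    ((isArtinianRing_iff_isFiniteLength (R := R)).mp inferInstance)
  refine ⟨L.length, fun i => L.get i, fun i => hL _ (L.get_mem i), ?_⟩
  intro T _ _ _
  have := IsSimpleModule.nontrivial R T
  obtain ⟨t, ht⟩ := exists_ne (0 : T)
  obtain ⟨S, hS, e⟩ := hL' T (LinearMap.toSpanSingleton R T t) (by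
    intro h
    apply ht
    have := LinearMap.congr_fun h 1
    simpa using this)
  obtain ⟨i, rfl⟩ := List.get_of_mem hS
  exact ⟨i, e⟩

end Simples

section Express

variable (k : Type v) [CommRing k] (R : Type u) [Ring R] [Algebra k R]
  [IsArtinianRing k] [Module.Finite k R]

theorem hl_zero (A : Type w) [AddCommGroup A] [Module R A]
    (B : Type u) [AddCommGroup B] [Module R B] [Module k B] [IsScalarTower k R B]
    [Subsingleton B] : hl k R A B = 0 := by
  unfold hl
  have : Subsingleton (A →ₗ[R] B) := ⟨fun f g => LinearMap.ext fun x => Subsingleton.elim _ _⟩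
  rw [Module.length_eq_zero]
  rfl

theorem express_proj {n : ℕ} (S : Fin n → ModuleCat.{u} R)
    (hS0 : ∀ i, IsSimpleModule R (S i))
    (hS : ∀ (T : Type u) [AddCommGroup T] [Module R T] [IsSimpleModule R T],
        ∃ i, Nonempty (T ≃ₗ[R] S i))
    [∀ i, Module k (S i)] [∀ i, IsScalarTower k R (S i)]
    (N : Type u) [AddCommGroup N] [Module R N] (h : IsFiniteLength R N) :
    ∀ [Module k N] [IsScalarTower k R N],
    ∃ c : Fin n → ℕ, ∀ (P : Type w) [AddCommGroup P] [Module R P] [Module.Finite R P]
      [Module.Projective R P], hl k R P N = ∑ i, c i * hl k R P (S i) := by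
  induction h with
  | @of_subsingleton N _ _ _ =>
    intro _ _
    refine ⟨0, fun P _ _ _ _ => ?_⟩
    rw [hl_zero]; simp
  | @of_simple_quotient N _ _ N' hN' h' ih =>
    intro _ _
    obtain ⟨c, hc⟩ := ih
    obtain ⟨j, ⟨e⟩⟩ := hS (N ⧸ N')
    have hNfl : IsFiniteLength R N := .of_simple_quotient h'
    have hNn := (isFiniteLength_iff_isNoetherian_isArtinian.mp hNfl).1
    have hSf : ∀ i, Module.Finite R (S i) := fun i => by
      have := hS0 i
      infer_instance
    refine ⟨fun i => c i + if i = j then 1 else 0, fun P _ _ _ _ => ?_⟩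
    rw [hl_add_right k R P N' (fun f => Module.projective_lifting_property N'.mkQ f
      N'.mkQ_surjective), hc P, hl_congr_right k R P e]
    simp [add_mul, Finset.sum_add_distrib]

theorem express_semisimple {n : ℕ} (S : Fin n → ModuleCat.{u} R)
    (hS0 : ∀ i, IsSimpleModule R (S i))
    (hS : ∀ (T : Type u) [AddCommGroup T] [Module R T] [IsSimpleModule R T],
        ∃ i, Nonempty (T ≃ₗ[R] S i))
    [∀ i, Module k (S i)] [∀ i, IsScalarTower k R (S i)]
    (N : Type u) [AddCommGroup N] [Module R N] (h : IsFiniteLength R N) :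
    ∀ [IsSemisimpleModule R N] [Module k N] [IsScalarTower k R N],
    ∃ c : Fin n → ℕ, ∀ (P : Type w) [AddCommGroup P] [Module R P] [Module.Finite R P],
      hl k R P N = ∑ i, c i * hl k R P (S i) := by
  induction h with
  | @of_subsingleton N _ _ _ =>
    intro _ _ _
    refine ⟨0, fun P _ _ _ => ?_⟩
    rw [hl_zero]; simp
  | @of_simple_quotient N _ _ N' hN' h' ih =>
    intro _ _ _
    obtain ⟨c, hc⟩ := ih
    obtain ⟨j, ⟨e⟩⟩ := hS (N ⧸ N')
    have hNfl : IsFiniteLength R N := .of_simple_quotient h'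
    have hNn := (isFiniteLength_iff_isNoetherian_isArtinian.mp hNfl).1
    have hSf : ∀ i, Module.Finite R (S i) := fun i => by
      have := hS0 i
      infer_instance
    obtain ⟨C, hC⟩ := exists_isCompl N'
    refine ⟨fun i => c i + if i = j then 1 else 0, fun P _ _ _ => ?_⟩
    rw [hl_add_right k R P N' (fun f => ⟨C.subtype ∘ₗ
        (N'.quotientEquivOfIsCompl C hC).toLinearMap ∘ₗ f, ?_⟩), hc P, hl_congr_right k R P e]
    · simp [add_mul, Finset.sum_add_distrib]
    · refine LinearMap.ext fun x => ?_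
      exact (Submodule.mk_quotientEquivOfIsCompl_apply hC (f x))

end Express

end Vale.Agent.P195
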