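import Vale.Agent.P195.Cover
import Vale.Agent.P195.ExtLemmas
import Vale.Agent.P195.Simples

namespace Vale.Agent.P195

open CategoryTheory Abelian

universe u v

/-! ### Linear algebra: a sequence in a finite-dimensional space -/

theorem numeric' {V : Type u} [AddCommGroup V] [Module ℚ V] [FiniteDimensional ℚ V]
    (W : ℕ → V) (φ : ℕ → V →ₗ[ℚ] ℚ) (b₀ : ℕ)
    (h0 : ∀ b, b₀ ≤ b → ∀ a, b < a → φ b (W a) = 0) :
    ∃ b, b₀ ≤ b ∧ φ b (W b) = 0 := by
  let U : ℕ → (Submodule ℚ V)ᵒᵈ := fun b => OrderDual.toDual (Submodule.span ℚ (W '' {a | b ≤ a}))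
  have hU : Monotone U := by
    intro b c hbc
    change Submodule.span ℚ (W '' {a | c ≤ a}) ≤ Submodule.span ℚ (W '' {a | b ≤ a})
    apply Submodule.span_mono
    apply Set.image_mono
    intro a ha
    exact le_trans hbc ha
  obtain ⟨n, hn⟩ := IsArtinian.monotone_stabilizes (R := ℚ) (M := V) ⟨U, hU⟩
  have h1 : U (n + b₀) = U (n + b₀ + 1) := by
    rw [show U (n + b₀) = U n from (hn (n + b₀) (by omega)).symm]
    exact hn (n + b₀ + 1) (by omega)
  refine ⟨n + b₀, by omega, ?_⟩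
  have hmem : W (n + b₀) ∈ Submodule.span ℚ (W '' {a | n + b₀ ≤ a}) :=
    Submodule.subset_span ⟨n + b₀, le_refl (n + b₀), rfl⟩
  have h2 : Submodule.span ℚ (W '' {a | n + b₀ ≤ a}) =
    Submodule.span ℚ (W '' {a | n + b₀ + 1 ≤ a}) := h1
  rw [h2] at hmem
  have hle : Submodule.span ℚ (W '' {a | n + b₀ + 1 ≤ a}) ≤ LinearMap.ker (φ (n + b₀)) := by
    rw [Submodule.span_le]
    rintro _ ⟨a, ha, rfl⟩
    exact h0 (n + b₀) (by omega) a (by have : n + b₀ + 1 ≤ a := ha; omega)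
  exact hle hmem

theorem numeric {V : Type u} [AddCommGroup V] [Module ℚ V] [FiniteDimensional ℚ V]
    (W : ℕ → V) (φ : ℕ → V →ₗ[ℚ] ℚ)
    (h0 : ∀ b, 1 ≤ b → ∀ a, b < a → φ b (W a) = 0) :
    ∃ b, 1 ≤ b ∧ φ b (W b) = 0 := by
  let U : ℕ → (Submodule ℚ V)ᵒᵈ := fun b => OrderDual.toDual (Submodule.span ℚ (W '' {a | b ≤ a}))
  have hU : Monotone U := by
    intro b c hbc
    change Submodule.span ℚ (W '' {a | c ≤ a}) ≤ Submodule.span ℚ (W '' {a | b ≤ a})
    apply Submodule.span_mono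
    apply Set.image_mono
    intro a ha
    exact le_trans hbc ha
  obtain ⟨n, hn⟩ := IsArtinian.monotone_stabilizes (R := ℚ) (M := V) ⟨U, hU⟩
  have h1 : U (n + 1) = U (n + 2) := by
    rw [show U (n + 1) = U n from (hn (n + 1) (by omega)).symm]
    exact hn (n + 2) (by omega)
  refine ⟨n + 1, by omega, ?_⟩
  have hmem : W (n + 1) ∈ Submodule.span ℚ (W '' {a | n + 1 ≤ a}) :=
    Submodule.subset_span ⟨n + 1, le_refl (n + 1), rfl⟩
  have h2 : Submodule.span ℚ (W '' {a | n + 1 ≤ a}) = Submodule.span ℚ (W '' {a | n + 2 ≤ a}) := h1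
  rw [h2] at hmem
  have hle : Submodule.span ℚ (W '' {a | n + 2 ≤ a}) ≤ LinearMap.ker (φ (n + 1)) := by
    rw [Submodule.span_le]
    rintro _ ⟨a, ha, rfl⟩
    exact h0 (n + 1) (by omega) a (by have : n + 2 ≤ a := ha; omega)
  exact hle hmem

/-! ### Minimal projective resolutions -/

section Res

variable {R : Type u} [Ring R] [IsArtinianRing R]

theorem exists_cover' (X : {X : ModuleCat.{u} R // Module.Finite R X}) :
    ∃ (P : ModuleCat.{u} R) (π : P →ₗ[R] X.1), Module.Finite R P ∧ Module.Projective R P ∧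
      Function.Surjective π ∧ LinearMap.ker π ≤ Ring.jacobson R • (⊤ : Submodule R P) := by
  have := X.2
  obtain ⟨P, i1, i2, π, h⟩ := exists_cover (R := R) X.1
  exact ⟨ModuleCat.of R P, π, h⟩

/-- the projective cover -/
noncomputable def Pc (X : {X : ModuleCat.{u} R // Module.Finite R X}) : ModuleCat.{u} R :=
  (exists_cover' X).choose

/-- the covering map -/
noncomputable def pic (X : {X : ModuleCat.{u} R // Module.Finite R X}) : Pc X →ₗ[R] X.1 :=
  (exists_cover' X).choose_spec.choose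

theorem pic_spec (X : {X : ModuleCat.{u} R // Module.Finite R X}) :
    Module.Finite R (Pc X) ∧ Module.Projective R (Pc X) ∧
      Function.Surjective (pic X) ∧
      LinearMap.ker (pic X) ≤ Ring.jacobson R • (⊤ : Submodule R (Pc X)) :=
  (exists_cover' X).choose_spec.choose_spec

/-- the syzygy -/
noncomputable def Om (X : {X : ModuleCat.{u} R // Module.Finite R X}) :
    {X : ModuleCat.{u} R // Module.Finite R X} :=
  ⟨ModuleCat.of R (LinearMap.ker (pic X)), by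
    have := (pic_spec X).1
    change Module.Finite R (LinearMap.ker (pic X))
    infer_instance⟩

/-- iterated syzygies -/
noncomputable def syz (X : {X : ModuleCat.{u} R // Module.Finite R X}) :
    ℕ → {X : ModuleCat.{u} R // Module.Finite R X}
  | 0 => X
  | n + 1 => Om (syz X n)

variable (M₀ : {X : ModuleCat.{u} R // Module.Finite R X})

theorem ext_syz_R (hMR : ∀ i, Subsingleton (Ext M₀.1 (ModuleCat.of R R) (i + 1))) (a : ℕ) :
    ∀ i, Subsingleton (Ext (syz M₀ a).1 (ModuleCat.of R R) (i + 1)) := by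
  induction a with
  | zero => exact hMR
  | succ a ih =>
    intro i
    exact ext_shift (pic (syz M₀ a)) (pic_spec _).2.2.1 (pic_spec _).2.1 _ i (ih (i + 1))

theorem ext_syz_diag (hMM : ∀ i, Subsingleton (Ext M₀.1 M₀.1 (i + 1)))
    (hMR : ∀ i, Subsingleton (Ext M₀.1 (ModuleCat.of R R) (i + 1))) (a : ℕ) :
    ∀ i, Subsingleton (Ext (syz M₀ a).1 (syz M₀ a).1 (i + 1)) := by
  induction a with
  | zero => exact hMM
  | succ a ih =>
    intro i
    refine ext_shift (pic (syz M₀ a)) (pic_spec _).2.2.1 (pic_spec _).2.1 _ i ?_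
    refine ext_cov (pic (syz M₀ a)) (pic_spec _).2.2.1 _ (i + 1) (ih i) ?_
    exact ext_proj _ _ (ext_syz_R M₀ hMR a (i + 1)) _ (pic_spec _).1 (pic_spec _).2.1

theorem ext_syz (hMM : ∀ i, Subsingleton (Ext M₀.1 M₀.1 (i + 1)))
    (hMR : ∀ i, Subsingleton (Ext M₀.1 (ModuleCat.of R R) (i + 1))) (b c : ℕ) :
    ∀ i, Subsingleton (Ext (syz M₀ (b + c)).1 (syz M₀ b).1 (i + 1)) := by
  induction c with
  | zero => exact ext_syz_diag M₀ hMM hMR b
  | succ c ih =>
    intro i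
    exact ext_shift (pic (syz M₀ (b + c))) (pic_spec _).2.2.1 (pic_spec _).2.1 _ i (ih (i + 1))

/-- if a syzygy is projective then so is the module -/
theorem proj_of_syz_proj (hMR : ∀ i, Subsingleton (Ext M₀.1 (ModuleCat.of R R) (i + 1)))
    (b : ℕ) (hb : Module.Projective R (syz M₀ b).1) : Module.Projective R M₀.1 := by
  induction b with
  | zero => exact hb
  | succ b ih =>
    apply ih
    have hP := (pic_spec (syz M₀ b)).2.1
    have hs := (pic_spec (syz M₀ b)).2.2.1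
    have h1 : Subsingleton (Ext (syz M₀ b).1 (syz M₀ (b + 1)).1 1) :=
      ext_proj _ _ (ext_syz_R M₀ hMR b 0) _ (syz M₀ (b + 1)).2 hb
    obtain ⟨r, hr⟩ := ext_extend (pic (syz M₀ b)) hs _ h1 LinearMap.id
    set π := pic (syz M₀ b) with hπ
    let r' : Pc (syz M₀ b) →ₗ[R] LinearMap.ker π := r
    have hr' : ∀ x : LinearMap.ker π, r' x = x := hr
    let s : Pc (syz M₀ b) →ₗ[R] Pc (syz M₀ b) := LinearMap.id - (LinearMap.ker π).subtype ∘ₗ r'
    have hs0 : LinearMap.ker π ≤ LinearMap.ker s := by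
      intro x hx
      have : ((r' x : LinearMap.ker π) : Pc (syz M₀ b)) = x :=
        congrArg Subtype.val (hr' ⟨x, hx⟩)
      simp [s, this]
    let e := π.quotKerEquivOfSurjective hs
    let σ : (syz M₀ b).1 →ₗ[R] Pc (syz M₀ b) := (LinearMap.ker π).liftQ s hs0 ∘ₗ e.symm.toLinearMap
    refine Module.Projective.of_split σ π ?_
    refine LinearMap.ext fun y => ?_
    obtain ⟨x, rfl⟩ := hs y
    have : e.symm (π x) = Submodule.Quotient.mk x := by
      rw [LinearEquiv.symm_apply_eq]; rfl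
    have h2 : π ((r' x : LinearMap.ker π) : Pc (syz M₀ b)) = 0 := (r' x).2
    simp [σ, this, s, h2]

section Count

variable (k : Type v) [CommRing k] [Algebra k R] [IsArtinianRing k] [Module.Finite k R]
  [∀ X : ModuleCat.{u} R, Module k X] [∀ X : ModuleCat.{u} R, IsScalarTower k R X]

/-- the radical of the `b`-th syzygy -/
noncomputable abbrev radSyz (b : ℕ) : Submodule R (syz M₀ b).1 :=
  Ring.jacobson R • (⊤ : Submodule R (syz M₀ b).1)

theorem count_main (hMM : ∀ i, Subsingleton (Ext M₀.1 M₀.1 (i + 1)))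
    (hMR : ∀ i, Subsingleton (Ext M₀.1 (ModuleCat.of R R) (i + 1))) (b c : ℕ) :
    hl k R (Pc (syz M₀ (b + c))) (syz M₀ b).1 =
      hl k R (syz M₀ (b + c)).1 (syz M₀ b).1 + hl k R (syz M₀ (b + c + 1)).1 (syz M₀ b).1 := by
  have := (syz M₀ (b + c)).2
  have := (syz M₀ (b + c + 1)).2
  have := (syz M₀ b).2
  have := (pic_spec (syz M₀ (b + c))).1
  refine hl_add_of_exact k R (A' := (syz M₀ (b + c + 1)).1)
    (LinearMap.ker (pic (syz M₀ (b + c)))).subtype (pic (syz M₀ (b + c)))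
    (pic_spec _).2.2.1 ?_ ?_
  · intro x
    constructor
    · intro hx
      exact ⟨⟨x, hx⟩, rfl⟩
    · rintro ⟨y, rfl⟩
      exact y.2
  · intro f
    obtain ⟨g, hg⟩ := ext_extend (pic (syz M₀ (b + c))) (pic_spec _).2.2.1 _
      (ext_syz M₀ hMM hMR b c 0) f
    exact ⟨g, LinearMap.ext hg⟩

theorem range_rad (hMM : ∀ i, Subsingleton (Ext M₀.1 M₀.1 (i + 1)))
    (hMR : ∀ i, Subsingleton (Ext M₀.1 (ModuleCat.of R R) (i + 1))) (b c : ℕ)
    (f : (syz M₀ (b + c + 1)).1 →ₗ[R] (syz M₀ b).1) (x : (syz M₀ (b + c + 1)).1) :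
    f x ∈ radSyz M₀ b := by
  obtain ⟨g, hg⟩ := ext_extend (pic (syz M₀ (b + c))) (pic_spec _).2.2.1 _
      (ext_syz M₀ hMM hMR b c 0) f
  have h1 := hg x
  have h2 : (x : LinearMap.ker (pic (syz M₀ (b + c)))).1 ∈
      Ring.jacobson R • (⊤ : Submodule R (Pc (syz M₀ (b + c)))) :=
    (pic_spec _).2.2.2 (x : LinearMap.ker (pic (syz M₀ (b + c)))).2
  have h3 : g (x : LinearMap.ker (pic (syz M₀ (b + c)))).1 ∈
      (Ring.jacobson R • (⊤ : Submodule R (Pc (syz M₀ (b + c))))).map g :=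
    Submodule.mem_map_of_mem h2
  rw [Submodule.map_smul''] at h3
  have h4 : g (x : LinearMap.ker (pic (syz M₀ (b + c)))).1 ∈ radSyz M₀ b :=
    Submodule.smul_mono le_rfl le_top h3
  rwa [h1] at h4

theorem count_rad (hMM : ∀ i, Subsingleton (Ext M₀.1 M₀.1 (i + 1)))
    (hMR : ∀ i, Subsingleton (Ext M₀.1 (ModuleCat.of R R) (i + 1))) (b c : ℕ) :
    hl k R (syz M₀ (b + c + 1)).1 (syz M₀ b).1 =
      hl k R (syz M₀ (b + c + 1)).1 (radSyz M₀ b) := by
  have := (syz M₀ (b + c + 1)).2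
  have := (syz M₀ b).2
  exact hl_eq_of_range k R _ _ (range_rad M₀ hMM hMR b c)

theorem count_strict (b : ℕ) (hb : Nontrivial (syz M₀ b).1) :
    hl k R (syz M₀ b).1 (radSyz M₀ b) < hl k R (syz M₀ b).1 (syz M₀ b).1 := by
  have := (syz M₀ b).2
  have hne : radSyz M₀ b ≠ ⊤ := by
    intro h
    have h1 := Submodule.FG.eq_bot_of_le_jacobson_smul (N := (⊤ : Submodule R (syz M₀ b).1))
      (Module.Finite.fg_top) (le_of_eq h.symm)
    exact bot_ne_top h1.symm
  have : ∃ x, x ∉ radSyz M₀ b := by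
    by_contra hcon
    push Not at hcon
    exact hne (eq_top_iff.mpr fun x _ => hcon x)
  obtain ⟨x, hx⟩ := this
  exact hl_lt k R _ _ LinearMap.id x hx

/-- The key theorem: if the radicals of the syzygies `Ω^b M`, `b ≥ 1`, are all
(as far as lengths of Hom spaces are concerned) sums of members of a fixed finite family of
modules, then `M` is projective. -/
theorem main_abstract (hMM : ∀ i, Subsingleton (Ext M₀.1 M₀.1 (i + 1)))
    (hMR : ∀ i, Subsingleton (Ext M₀.1 (ModuleCat.of R R) (i + 1)))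
    {m : ℕ} (X : Fin m → ModuleCat.{u} R)
    (hX : ∀ b, ∃ d : Fin m → ℕ, ∀ (A : ModuleCat.{u} R), Module.Finite R A →
      hl k R A (radSyz M₀ (b + 1)) = ∑ j, d j * hl k R A (X j)) :
    Module.Projective R M₀.1 := by
  obtain ⟨n, S, hS0, hS⟩ := simple_fin.{u, u} R
  have hfl : ∀ b, IsFiniteLength R (syz M₀ b).1 := fun b => by
    have := (syz M₀ b).2
    rw [isFiniteLength_iff_isNoetherian_isArtinian]
    exact ⟨inferInstance, inferInstance⟩
  choose c hc using fun b => express_proj.{u, v, u} k R S hS0 hS (syz M₀ b).1 (hfl b)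
  choose d hd using hX
  let W : ℕ → (Fin n → ℚ) × (Fin m → ℚ) × (Fin m → ℚ) := fun a =>
    (fun i => (hl k R (Pc (syz M₀ a)) (S i) : ℚ),
     fun j => (hl k R (syz M₀ a).1 (X j) : ℚ),
     fun j => (hl k R (syz M₀ (a + 1)).1 (X j) : ℚ))
  let φ : ℕ → ((Fin n → ℚ) × (Fin m → ℚ) × (Fin m → ℚ)) →ₗ[ℚ] ℚ := fun b =>
    (∑ i, (c b i : ℚ) • LinearMap.proj i) ∘ₗ LinearMap.fst ℚ _ _
    - (∑ j, (d (b - 1) j : ℚ) • LinearMap.proj j) ∘ₗ LinearMap.fst ℚ _ _ ∘ₗ LinearMap.snd ℚ _ _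
    - (∑ j, (d (b - 1) j : ℚ) • LinearMap.proj j) ∘ₗ LinearMap.snd ℚ _ _ ∘ₗ LinearMap.snd ℚ _ _
  have hφ : ∀ b a, φ (b + 1) (W a) = (hl k R (Pc (syz M₀ a)) (syz M₀ (b + 1)).1 : ℚ)
      - (hl k R (syz M₀ a).1 (radSyz M₀ (b + 1)) : ℚ)
      - (hl k R (syz M₀ (a + 1)).1 (radSyz M₀ (b + 1)) : ℚ) := by
    intro b a
    have h1 := (pic_spec (syz M₀ a)).1
    have h2 := (pic_spec (syz M₀ a)).2.1
    rw [hc (b + 1) (Pc (syz M₀ a)), hd b _ (syz M₀ a).2, hd b _ (syz M₀ (a + 1)).2]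
    simp [φ, W]
  obtain ⟨b, hb, hb0⟩ := numeric W φ (by
    intro b hb a hab
    obtain ⟨b, rfl⟩ : ∃ b', b = b' + 1 := ⟨b - 1, by omega⟩
    obtain ⟨e, rfl⟩ : ∃ e, a = b + 1 + e + 1 := ⟨a - b - 2, by omega⟩
    rw [hφ]
    have h1 := count_main M₀ k hMM hMR (b + 1) (e + 1)
    have h2 := count_rad M₀ k hMM hMR (b + 1) e
    have h3 := count_rad M₀ k hMM hMR (b + 1) (e + 1)
    have h4 : b + 1 + (e + 1) = b + 1 + e + 1 := by omega
    rw [h4] at h1 h3
    rw [h1, h2, h3]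
    push_cast
    ring)
  obtain ⟨b, rfl⟩ : ∃ b', b = b' + 1 := ⟨b - 1, by omega⟩
  rw [hφ] at hb0
  have h1 : hl k R (Pc (syz M₀ (b + 1))) (syz M₀ (b + 1)).1 =
      hl k R (syz M₀ (b + 1)).1 (syz M₀ (b + 1)).1 +
        hl k R (syz M₀ (b + 1 + 1)).1 (syz M₀ (b + 1)).1 := count_main M₀ k hMM hMR (b + 1) 0
  have h3 : hl k R (syz M₀ (b + 1 + 1)).1 (syz M₀ (b + 1)).1 =
      hl k R (syz M₀ (b + 1 + 1)).1 (radSyz M₀ (b + 1)) := count_rad M₀ k hMM hMR (b + 1) 0
  have hns : ¬ Nontrivial (syz M₀ (b + 1)).1 := by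
    intro hnt
    have h4 := count_strict M₀ k (b + 1) hnt
    rw [h1, h3] at hb0
    have h5 : (hl k R (syz M₀ (b + 1)).1 (radSyz M₀ (b + 1)) : ℚ)
      < hl k R (syz M₀ (b + 1)).1 (syz M₀ (b + 1)).1 := by exact_mod_cast h4
    push_cast at hb0
    linarith
  have hsub : Subsingleton (syz M₀ (b + 1)).1 := not_nontrivial_iff_subsingleton.mp hns
  refine proj_of_syz_proj M₀ hMR (b + 1) ?_
  infer_instance

/-- A second form of the key theorem: the lengths of `Hom(Ω^a M, Ω^b M)`, `a > b`, are given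
by a bilinear expression of finite rank which is strictly too small for `a = b`. -/
theorem main_abstract2 (hMM : ∀ i, Subsingleton (Ext M₀.1 M₀.1 (i + 1)))
    (hMR : ∀ i, Subsingleton (Ext M₀.1 (ModuleCat.of R R) (i + 1)))
    {m : ℕ} (y d : ℕ → Fin m → ℚ) (b₀ : ℕ)
    (h1 : ∀ b c, b₀ ≤ b →
      (hl k R (syz M₀ (b + c + 1)).1 (syz M₀ b).1 : ℚ) = ∑ j, d b j * y (b + c + 1) j)
    (h2 : ∀ b, b₀ ≤ b → Nontrivial (syz M₀ b).1 →
      ∑ j, d b j * y b j < (hl k R (syz M₀ b).1 (syz M₀ b).1 : ℚ)) :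
    Module.Projective R M₀.1 := by
  obtain ⟨n, S, hS0, hS⟩ := simple_fin.{u, u} R
  have hfl : ∀ b, IsFiniteLength R (syz M₀ b).1 := fun b => by
    have := (syz M₀ b).2
    rw [isFiniteLength_iff_isNoetherian_isArtinian]
    exact ⟨inferInstance, inferInstance⟩
  choose c hc using fun b => express_proj.{u, v, u} k R S hS0 hS (syz M₀ b).1 (hfl b)
  let W : ℕ → (Fin n → ℚ) × (Fin m → ℚ) × (Fin m → ℚ) := fun a =>
    (fun i => (hl k R (Pc (syz M₀ a)) (S i) : ℚ), y a, y (a + 1))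
  let φ : ℕ → ((Fin n → ℚ) × (Fin m → ℚ) × (Fin m → ℚ)) →ₗ[ℚ] ℚ := fun b =>
    (∑ i, (c b i : ℚ) • LinearMap.proj i) ∘ₗ LinearMap.fst ℚ _ _
    - (∑ j, (d b j : ℚ) • LinearMap.proj j) ∘ₗ LinearMap.fst ℚ _ _ ∘ₗ LinearMap.snd ℚ _ _
    - (∑ j, (d b j : ℚ) • LinearMap.proj j) ∘ₗ LinearMap.snd ℚ _ _ ∘ₗ LinearMap.snd ℚ _ _
  have hφ : ∀ b a, φ b (W a) = (hl k R (Pc (syz M₀ a)) (syz M₀ b).1 : ℚ)
      - (∑ j, d b j * y a j) - (∑ j, d b j * y (a + 1) j) := by
    intro b a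
    have h1 := (pic_spec (syz M₀ a)).1
    have h2 := (pic_spec (syz M₀ a)).2.1
    rw [hc b (Pc (syz M₀ a))]
    simp [φ, W]
  obtain ⟨b, hb, hb0⟩ := numeric' W φ b₀ (by
    intro b hb a hab
    obtain ⟨e, rfl⟩ : ∃ e, a = b + e + 1 := ⟨a - b - 1, by omega⟩
    rw [hφ]
    have h4 := count_main M₀ k hMM hMR b (e + 1)
    have h5 := h1 b e hb
    have h6 := h1 b (e + 1) hb
    have h7 : b + (e + 1) = b + e + 1 := by omega
    rw [h7] at h4 h6
    rw [h4, ← h5, ← h6]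
    push_cast
    ring)
  rw [hφ] at hb0
  have h4 : hl k R (Pc (syz M₀ b)) (syz M₀ b).1 =
      hl k R (syz M₀ b).1 (syz M₀ b).1 +
        hl k R (syz M₀ (b + 1)).1 (syz M₀ b).1 := count_main M₀ k hMM hMR b 0
  have h5 : (hl k R (syz M₀ (b + 1)).1 (syz M₀ b).1 : ℚ) = ∑ j, d b j * y (b + 1) j := h1 b 0 hb
  have hns : ¬ Nontrivial (syz M₀ b).1 := by
    intro hnt
    have h6 := h2 b hb hnt
    rw [h4, ← h5] at hb0
    push_cast at hb0
    linarith
  have hsub : Subsingleton (syz M₀ b).1 := not_nontrivial_iff_subsingleton.mp hns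
  refine proj_of_syz_proj M₀ hMR b ?_
  infer_instance

end Count

end Res

end Vale.Agent.P195
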