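import Vale.Agent.P195.Transfer

namespace Vale.Agent.P195

open CategoryTheory Abelian

universe u v

section

variable {R : Type u} [Ring R] [IsArtinianRing R] (I : Ideal R) [I.IsTwoSided]

theorem exists_split (P : ModuleCat.{u} R) [Module.Finite R P] [Module.Projective R P] :
    ∃ (m : ℕ) (s : P →ₗ[R] (Fin m → R)) (p : (Fin m → R) →ₗ[R] P), p ∘ₗ s = LinearMap.id := by
  obtain ⟨m, p, s, -, -, h⟩ := Module.Finite.exists_comp_eq_id_of_projective R P
  exact ⟨m, s, p, h⟩

/-- the coordinatewise quotient map -/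
def coordMk (m : ℕ) : (Fin m → R) →ₗ[R] (Fin m → R ⧸ I) :=
  LinearMap.pi fun i => (Submodule.mkQ I) ∘ₗ LinearMap.proj i

theorem coordMk_ker {m : ℕ} {x : Fin m → R} (hx : coordMk I m x = 0) (i : Fin m) : x i ∈ I := by
  have := congrFun hx i
  exact (Submodule.Quotient.mk_eq_zero I).mp this

theorem mem_smul_of_coord {P : Type u} [AddCommGroup P] [Module R P] {m : ℕ}
    (p : (Fin m → R) →ₗ[R] P) {x : Fin m → R} (hx : ∀ i, x i ∈ I) :
    p x ∈ I • (⊤ : Submodule R P) := by
  classical
  have : x = ∑ i, x i • (Pi.single i (1 : R) : Fin m → R) := by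
    ext j
    simp [Finset.sum_apply, Pi.single_apply]
  rw [this, map_sum]
  refine Submodule.sum_mem _ fun i _ => ?_
  rw [map_smul]
  exact Submodule.smul_mem_smul (hx i) Submodule.mem_top

/-- For every finitely generated projective module there is a map to `(R/I)^m` whose kernel is
contained in `I P`. -/
theorem exists_quot (P : ModuleCat.{u} R) [Module.Finite R P] [Module.Projective R P] :
    ∃ (m : ℕ) (q : P →ₗ[R] (Fin m → R ⧸ I)),
      LinearMap.ker q ≤ I • (⊤ : Submodule R P) := by
  obtain ⟨m, s, p, h⟩ := exists_split P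
  refine ⟨m, coordMk I m ∘ₗ s, fun x hx => ?_⟩
  have h1 : coordMk I m (s x) = 0 := hx
  have h2 := mem_smul_of_coord I p (coordMk_ker I h1)
  have h3 : p (s x) = x := LinearMap.congr_fun h x
  rwa [h3] at h2

end

end Vale.Agent.P195
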