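import Vale.Agent.P195.TorsionlessDef

namespace Vale.Agent.P195

universe u

/-- A ring `A` is representation-finite if there are only finitely many isomorphism classes of
finitely generated indecomposable `A`-modules. -/
def RepFinite (A : Type u) [Ring A] : Prop :=
  ∃ (n : ℕ) (X : Fin n → ModuleCat.{u} A), ∀ N : ModuleCat.{u} A, Module.Finite A N →
    Indec A N → ∃ i, Nonempty (N ≃ₗ[A] X i)

/-- Only finitely many isomorphism classes of indecomposable `R`-modules occur as submodules of
the radicals `rad ((R/I)^m)`, `m ≥ 0`. -/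
def RadTorsionlessFinite (R : Type u) [Ring R] (I : Ideal R) : Prop :=
  ∃ (n : ℕ) (X : Fin n → ModuleCat.{u} R), ∀ (m : ℕ) (N : Submodule R (Fin m → R ⧸ I)),
    N ≤ Ring.jacobson R • (⊤ : Submodule R (Fin m → R ⧸ I)) → Indec R N →
      ∃ i, Nonempty (N ≃ₗ[R] X i)

end Vale.Agent.P195
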