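import Vale.Agent.P195.Quot
import Vale.Agent.P195.RadFinDef

namespace Vale.Agent.P195

open CategoryTheory Abelian

universe u v w w₁ w₂

section

variable (k : Type v) [CommRing k] (R : Type u) [Ring R] [Algebra k R]
  [IsArtinianRing k] [Module.Finite k R]

/-- Decomposition into indecomposables, counted through `Hom`, inside a given submodule. -/
theorem decomp_count' {F : Type w} [AddCommGroup F] [Module R F] [IsNoetherian R F]
    [IsArtinian R F] {n : ℕ} (X : Fin n → Type w₂) [∀ i, AddCommGroup (X i)]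
    [∀ i, Module R (X i)] [∀ i, Module.Finite R (X i)] (V : Submodule R F)
    (hX : ∀ U : Submodule R F, U ≤ V → Indec R U → ∃ i, Nonempty (U ≃ₗ[R] X i))
    (U : Submodule R F) (hUV : U ≤ V) :
    ∃ y : Fin n → ℕ, ∀ (B : Type w₁) [AddCommGroup B] [Module R B] [Module k B]
      [IsScalarTower k R B] [Module.Finite R B], hl k R U B = ∑ i, y i * hl k R (X i) B := by
  induction U using WellFoundedLT.induction with
  | ind U ih =>
    by_cases hnt : Nontrivial U
    · by_cases hind : Indec R U
      · obtain ⟨i, ⟨e⟩⟩ := hX U hUV hind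
        refine ⟨fun j => if j = i then 1 else 0, fun B _ _ _ _ _ => ?_⟩
        rw [hl_congr_left k R B e]
        simp
      · have hex : ∃ U1 V1 : Submodule R U, IsCompl U1 V1 ∧ U1 ≠ ⊥ ∧ V1 ≠ ⊥ := by
          by_contra hcon
          push Not at hcon
          refine hind ⟨hnt, fun U1 V1 h => ?_⟩
          by_cases h1 : U1 = ⊥
          · exact Or.inl h1
          · exact Or.inr (hcon U1 V1 h h1)
        obtain ⟨U1, V1, hc, hU1, hV1⟩ := hex
        have hlt : ∀ W W' : Submodule R U, IsCompl W W' → W' ≠ ⊥ → W.map U.subtype < U := by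
          intro W W' hW hW'
          refine lt_of_le_of_ne (Submodule.map_subtype_le U W) ?_
          intro heq
          apply hW'
          have hWt : W = ⊤ := by
            apply Submodule.map_injective_of_injective U.injective_subtype
            rw [heq, Submodule.map_subtype_top]
          have := hW.inf_eq_bot
          rwa [hWt, top_inf_eq] at this
        obtain ⟨y1, hy1⟩ := ih _ (hlt U1 V1 hc hV1) ((hlt U1 V1 hc hV1).le.trans hUV)
        obtain ⟨y2, hy2⟩ := ih _ (hlt V1 U1 hc.symm hU1) ((hlt V1 U1 hc.symm hU1).le.trans hUV)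
        refine ⟨fun i => y2 i + y1 i, fun B _ _ _ _ _ => ?_⟩
        rw [hl_compl k R B U1 V1 hc inferInstance inferInstance,
          hl_congr_left k R B (U1.equivMapOfInjective U.subtype U.injective_subtype),
          hl_congr_left k R B (V1.equivMapOfInjective U.subtype U.injective_subtype),
          hy1, hy2, ← Finset.sum_add_distrib]
        refine Finset.sum_congr rfl fun i _ => ?_
        ring
    · have hsub : Subsingleton U := not_nontrivial_iff_subsingleton.mp hnt
      refine ⟨0, fun B _ _ _ _ _ => ?_⟩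
      have : Subsingleton (U →ₗ[R] B) := ⟨fun f g => LinearMap.ext fun x => by
        rw [Subsingleton.elim x 0, map_zero, map_zero]⟩
      unfold hl
      rw [Module.length_eq_zero]
      simp

end

theorem radFin_fix {R : Type u} [Ring R] [IsNoetherianRing R] {I : Ideal R}
    (h : RadTorsionlessFinite R I) :
    ∃ (n : ℕ) (X : Fin n → ModuleCat.{u} R), (∀ i, Module.Finite R (X i)) ∧
      ∀ (m : ℕ) (N : Submodule R (Fin m → R ⧸ I)),
        N ≤ Ring.jacobson R • (⊤ : Submodule R (Fin m → R ⧸ I)) → Indec R N →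
          ∃ i, Nonempty (N ≃ₗ[R] X i) := by
  classical
  obtain ⟨n, X₀, hX⟩ := h
  let X' : Fin n → ModuleCat.{u} R := fun i =>
    if Module.Finite R (X₀ i) then X₀ i else ModuleCat.of R PUnit
  refine ⟨n, X', ?_, ?_⟩
  · intro i
    by_cases hi : Module.Finite R (X₀ i)
    · have : X' i = X₀ i := if_pos hi
      rw [this]; exact hi
    · have : X' i = ModuleCat.of R PUnit := if_neg hi
      rw [this]
      change Module.Finite R PUnit.{u+1}
      infer_instance
  · intro m N hN hind
    obtain ⟨i, ⟨e⟩⟩ := hX m N hN hind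
    have hfin : Module.Finite R (X₀ i) := Module.Finite.equiv e
    have : X' i = X₀ i := if_pos hfin
    refine ⟨i, ?_⟩
    rw [this]
    exact ⟨e⟩


theorem arc_of_radTorsionlessFinite {k : Type v} [CommRing k] [IsArtinianRing k]
    {R : Type u} [Ring R] [Algebra k R] [Module.Finite k R]
    (I : Ideal R) [I.IsTwoSided] (hI : I * Ring.jacobson R = ⊥)
    (hfin : RadTorsionlessFinite R I)
    (M : ModuleCat.{u} R) [Module.Finite R M]
    (hMM : ∀ i : ℕ, 1 ≤ i → Subsingleton (Ext M M i))
    (hMR : ∀ i : ℕ, 1 ≤ i → Subsingleton (Ext M (ModuleCat.of R R) i)) :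
    Module.Projective R M := by
  classical
  have : IsArtinianRing R := IsArtinianRing.of_finite k R
  let _ : ∀ X : ModuleCat.{u} R, Module k X := fun X => Module.compHom X (algebraMap k R)
  have _ : ∀ X : ModuleCat.{u} R, IsScalarTower k R X := fun X =>
    ⟨fun a b x => by
      rw [Algebra.smul_def, mul_smul]
      rfl⟩
  let M₀ : {X : ModuleCat.{u} R // Module.Finite R X} := ⟨M, inferInstance⟩
  have hMM' : ∀ i, Subsingleton (Ext M₀.1 M₀.1 (i + 1)) := fun i => hMM (i + 1) (by omega)
  have hMR' : ∀ i, Subsingleton (Ext M₀.1 (ModuleCat.of R R) (i + 1)) :=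
    fun i => hMR (i + 1) (by omega)
  obtain ⟨n, X, hXfin, hX⟩ := radFin_fix hfin
  have hkill : ∀ b, I • (⊤ : Submodule R (syz M₀ (b + 1)).1) = ⊥ := by
    intro b
    have h1 := (pic_spec (syz M₀ b)).2.2.2
    set K := LinearMap.ker (pic (syz M₀ b)) with hK
    have h2 : I • (⊤ : Submodule R K) = ⊥ := by
      have h3 : (I • (⊤ : Submodule R K)).map K.subtype = ⊥ := by
        rw [Submodule.map_smul'', Submodule.map_subtype_top, eq_bot_iff]
        calc I • K ≤ I • Ring.jacobson R • (⊤ : Submodule R (Pc (syz M₀ b))) :=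
              Submodule.smul_mono le_rfl h1
          _ = (I * Ring.jacobson R) • (⊤ : Submodule R (Pc (syz M₀ b))) := by
              rw [Submodule.mul_smul]
          _ ≤ ⊥ := by rw [hI, Submodule.bot_smul]
      exact Submodule.map_injective_of_injective K.injective_subtype
        (h3.trans (Submodule.map_bot _).symm)
    exact h2
  -- the quotients `N_{a+1}` of `M_{a+1}`
  have hq : ∀ a, ∃ (m : ℕ) (q : Pc (syz M₀ a) →ₗ[R] (Fin m → R ⧸ I)),
      LinearMap.ker q ≤ I • (⊤ : Submodule R (Pc (syz M₀ a))) := fun a => by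
    have := (pic_spec (syz M₀ a)).1
    have := (pic_spec (syz M₀ a)).2.1
    exact exists_quot I _
  choose m q hq using hq
  let G : ∀ a, (syz M₀ (a + 1)).1 →ₗ[R] (Fin (m a) → R ⧸ I) := fun a =>
    q a ∘ₗ (LinearMap.ker (pic (syz M₀ a))).subtype
  have hy : ∀ a, ∃ y : Fin n → ℕ, ∀ (B : Type u) [AddCommGroup B] [Module R B] [Module k B]
      [IsScalarTower k R B] [Module.Finite R B],
      hl k R (LinearMap.range (G a)) B = ∑ i, y i * hl k R (X i) B := by
    intro a
    refine decomp_count' k R (fun i => X i) (Ring.jacobson R • ⊤)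
      (fun U hU hind => hX (m a) U hU hind) _ ?_
    rintro _ ⟨x, rfl⟩
    have h2 : (x : LinearMap.ker (pic (syz M₀ a))).1 ∈
        Ring.jacobson R • (⊤ : Submodule R (Pc (syz M₀ a))) :=
      (pic_spec _).2.2.2 (x : LinearMap.ker (pic (syz M₀ a))).2
    have h3 := Submodule.mem_map_of_mem (f := q a) h2
    rw [Submodule.map_smul''] at h3
    exact Submodule.smul_mono le_rfl le_top h3
  choose y hy using hy
  -- extension of maps and kernels
  have hker : ∀ b c (f : (syz M₀ (b + 1 + c + 1)).1 →ₗ[R] (syz M₀ (b + 1)).1),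
      LinearMap.ker (G (b + 1 + c)) ≤ LinearMap.ker f := by
    intro b c f x hx
    obtain ⟨g, hg⟩ := ext_extend (pic (syz M₀ (b + 1 + c))) (pic_spec _).2.2.1 _
      (ext_syz M₀ hMM' hMR' (b + 1) c 0) f
    have h1 : (x : LinearMap.ker (pic (syz M₀ (b + 1 + c)))).1 ∈
        I • (⊤ : Submodule R (Pc (syz M₀ (b + 1 + c)))) := hq _ hx
    have h2 := Submodule.mem_map_of_mem (f := g) h1
    rw [Submodule.map_smul''] at h2
    have h3 := Submodule.smul_mono (le_refl I) (le_top : _ ≤ (⊤ : Submodule R (syz M₀ (b + 1)).1)) h2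
    rw [hkill b] at h3
    have h4 := hg x
    rw [h4] at h3
    exact h3
  refine main_abstract2 M₀ k hMM' hMR' (m := n)
    (fun a j => match a with
      | 0 => 0
      | a + 1 => (y a j : ℚ))
    (fun b j => (hl k R (X j) (radSyz M₀ b) : ℚ)) 1 ?_ ?_
  · intro b c hb
    obtain ⟨b, rfl⟩ : ∃ b', b = b' + 1 := ⟨b - 1, by omega⟩
    have i1 := (syz M₀ (b + 1 + c + 1)).2
    have i2 := (syz M₀ (b + 1)).2
    rw [count_rad M₀ k hMM' hMR' (b + 1) c]
    have h1 : hl k R (syz M₀ (b + 1 + c + 1)).1 (radSyz M₀ (b + 1)) =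
        hl k R (LinearMap.range (G (b + 1 + c))) (radSyz M₀ (b + 1)) := by
      refine hl_eq_of_surj k R (G (b + 1 + c)).rangeRestrict
        (LinearMap.surjective_rangeRestrict _) ?_
      intro f
      rw [LinearMap.ker_rangeRestrict]
      refine (hker b c ((radSyz M₀ (b + 1)).subtype ∘ₗ f)).trans ?_
      intro x hx
      have : ((f x : radSyz M₀ (b + 1)) : (syz M₀ (b + 1)).1) = 0 := hx
      exact Subtype.ext this
    rw [h1, hy (b + 1 + c) (radSyz M₀ (b + 1))]
    push_cast
    refine Finset.sum_congr rfl fun j _ => ?_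
    ring
  · intro b hb hnt
    obtain ⟨b, rfl⟩ : ∃ b', b = b' + 1 := ⟨b - 1, by omega⟩
    have i2 := (syz M₀ (b + 1)).2
    have h1 := count_strict M₀ k (b + 1) hnt
    have h2 : hl k R (LinearMap.range (G b)) (radSyz M₀ (b + 1)) ≤
        hl k R (syz M₀ (b + 1)).1 (radSyz M₀ (b + 1)) :=
      hl_le_of_surj k R (G b).rangeRestrict (LinearMap.surjective_rangeRestrict _)
    rw [hy b (radSyz M₀ (b + 1))] at h2
    have h3 := lt_of_le_of_lt h2 h1
    have h4 : ((∑ j, y b j * hl k R (X j) (radSyz M₀ (b + 1)) : ℕ) : ℚ) <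
        (hl k R (syz M₀ (b + 1)).1 (syz M₀ (b + 1)).1 : ℚ) := by exact_mod_cast h3
    push_cast at h4
    refine lt_of_le_of_lt (le_of_eq ?_) h4
    refine Finset.sum_congr rfl fun j _ => ?_
    ring

end Vale.Agent.P195
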