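import Vale.Agent.P195.RadFin

namespace Vale.Agent.P195

open CategoryTheory Abelian

universe u v

section

variable {R : Type u} [Ring R] (I : Ideal R) [I.IsTwoSided]

/-- A module killed by `I` over a ring with `R/I` representation-finite. -/
theorem repFinite_transfer (h : RepFinite (R ⧸ I)) :
    ∃ (n : ℕ) (X : Fin n → ModuleCat.{u} R), ∀ (N : Type u) [AddCommGroup N] [Module R N],
      Module.Finite R N → (∀ r ∈ I, ∀ x : N, r • x = 0) → Indec R N →
        ∃ i, Nonempty (N ≃ₗ[R] X i) := by
  obtain ⟨n, X, hX⟩ := h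
  refine ⟨n, fun i => (ModuleCat.restrictScalars (Ideal.Quotient.mk I)).obj (X i), ?_⟩
  intro N _ _ hN hI hind
  have htor : Module.IsTorsionBySet R N I := fun x r => hI r.1 r.2 x
  letI := htor.module
  have hsm : ∀ (r : R) (x : N), (Ideal.Quotient.mk I r) • x = r • x := fun r x => rfl
  let e : N →ₛₗ[Ideal.Quotient.mk I] N :=
    { toFun := fun x => x
      map_add' := fun _ _ => rfl
      map_smul' := fun r x => (hsm r x).symm }
  have hbij : Function.Bijective e := ⟨fun x y h => h, fun y => ⟨y, rfl⟩⟩
  have : RingHomSurjective (Ideal.Quotient.mk I) := ⟨Ideal.Quotient.mk_surjective⟩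
  let f := Submodule.orderIsoMapComapOfBijective e hbij
  have hind' : Indec (R ⧸ I) N := by
    refine ⟨hind.1, ?_⟩
    intro A B hAB
    have h1 : IsCompl (f.symm A) (f.symm B) := f.symm.isCompl hAB
    rcases hind.2 _ _ h1 with h2 | h2
    · left
      have := congrArg f h2
      simpa using this
    · right
      have := congrArg f h2
      simpa using this
  have hfin' : Module.Finite (R ⧸ I) N := by
    obtain ⟨s, hs⟩ := hN.fg_top
    refine ⟨⟨s, ?_⟩⟩
    rw [eq_top_iff]
    intro x _
    have hx : x ∈ Submodule.span R (s : Set N) := by rw [hs]; trivial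
    refine Submodule.span_induction (p := fun x _ => x ∈ Submodule.span (R ⧸ I) (s : Set N))
      (fun x hx => Submodule.subset_span hx) (Submodule.zero_mem _)
      (fun x y _ _ hx hy => Submodule.add_mem _ hx hy) (fun r x _ hx => ?_) hx
    rw [← hsm]
    exact Submodule.smul_mem _ _ hx
  obtain ⟨i, ⟨g⟩⟩ := hX (ModuleCat.of (R ⧸ I) N) hfin' hind'
  refine ⟨i, ⟨?_⟩⟩
  exact
    { toFun := fun x => g x
      invFun := fun y => g.symm y
      left_inv := fun x => g.symm_apply_apply x
      right_inv := fun y => g.apply_symm_apply y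
      map_add' := fun x y => map_add g x y
      map_smul' := fun r x => by
        change g (r • x) = (Ideal.Quotient.mk I r) • g x
        rw [← map_smul]
        rfl }

end

theorem radTorsionlessFinite_of_repFinite {R : Type u} [Ring R] [IsNoetherianRing R] (n : ℕ)
    (h : RepFinite (R ⧸ Ring.jacobson R ^ n)) :
    RadTorsionlessFinite R (Ring.jacobson R ^ (n + 1)) := by
  obtain ⟨t, X, hX⟩ := repFinite_transfer (Ring.jacobson R ^ n) h
  refine ⟨t, X, ?_⟩
  intro m N hN hind
  refine hX N inferInstance ?_ hind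
  intro r hr x
  have h1 : r • (x : Fin m → R ⧸ Ring.jacobson R ^ (n + 1)) ∈
      (Ring.jacobson R ^ n) • (Ring.jacobson R •
        (⊤ : Submodule R (Fin m → R ⧸ Ring.jacobson R ^ (n + 1)))) :=
    Submodule.smul_mem_smul hr (hN x.2)
  rw [← Submodule.mul_smul, ← Submodule.pow_succ] at h1
  have h2 : (Ring.jacobson R ^ (n + 1)) •
      (⊤ : Submodule R (Fin m → R ⧸ Ring.jacobson R ^ (n + 1))) = ⊥ := by
    rw [eq_bot_iff, Submodule.smul_le]
    intro s hs y _
    rw [Submodule.mem_bot]
    ext i
    obtain ⟨z, hz⟩ := Ideal.Quotient.mk_surjective (y i)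
    simp only [Pi.smul_apply, Pi.zero_apply]
    rw [← hz]
    change (Ideal.Quotient.mk (Ring.jacobson R ^ (n + 1))) (s * z) = 0
    rw [Ideal.Quotient.eq_zero_iff_mem]
    exact Ideal.mul_mem_right _ _ hs
  rw [h2, Submodule.mem_bot] at h1
  exact Subtype.ext h1

end Vale.Agent.P195
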