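import Vale.Agent.P195.Decomp

namespace Vale.Agent.P195

open CategoryTheory Abelian

universe u v w w₁ w₂

section

variable {R : Type u} [Ring R] (I : Ideal R) [I.IsTwoSided]

/-- an `R`-submodule of `(R/I)^m` as an `R/I`-submodule -/
def upSub {m : ℕ} (U : Submodule R (Fin m → R ⧸ I)) : Submodule (R ⧸ I) (Fin m → R ⧸ I) where
  carrier := U
  add_mem' := U.add_mem
  zero_mem' := U.zero_mem
  smul_mem' := by
    intro c x hx
    obtain ⟨r, rfl⟩ := Ideal.Quotient.mk_surjective c
    have : (Ideal.Quotient.mk I r) • x = r • x := by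
      ext i
      obtain ⟨s, hs⟩ := Ideal.Quotient.mk_surjective (x i)
      simp only [Pi.smul_apply, ← hs]
      rfl
    rw [this]
    exact U.smul_mem r hx

/-- the identity as a semilinear map -/
def upMap {m : ℕ} (U : Submodule R (Fin m → R ⧸ I)) :
    U →ₛₗ[Ideal.Quotient.mk I] upSub I U where
  toFun x := ⟨x.1, x.2⟩
  map_add' x y := rfl
  map_smul' r x := by
    apply Subtype.ext
    ext i
    obtain ⟨s, hs⟩ := Ideal.Quotient.mk_surjective ((x : Fin m → R ⧸ I) i)
    change r • ((x : Fin m → R ⧸ I) i) = (Ideal.Quotient.mk I r) • ((x : Fin m → R ⧸ I) i)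
    rw [← hs]
    rfl

theorem upMap_bij {m : ℕ} (U : Submodule R (Fin m → R ⧸ I)) : Function.Bijective (upMap I U) :=
  ⟨fun x y h => Subtype.ext (congrArg Subtype.val h), fun y => ⟨⟨y.1, y.2⟩, rfl⟩⟩

theorem indec_up {m : ℕ} (U : Submodule R (Fin m → R ⧸ I)) (h : Indec R U) :
    Indec (R ⧸ I) (upSub I U) := by
  have : RingHomSurjective (Ideal.Quotient.mk I) := ⟨Ideal.Quotient.mk_surjective⟩
  let e := Submodule.orderIsoMapComapOfBijective (upMap I U) (upMap_bij I U)
  refine ⟨?_, ?_⟩
  · have := h.1
    exact (upMap_bij I U).1.nontrivial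
  · intro A B hAB
    have h1 : IsCompl (e.symm A) (e.symm B) := e.symm.isCompl hAB
    rcases h.2 _ _ h1 with h2 | h2
    · left
      have := congrArg e h2
      simpa using this
    · right
      have := congrArg e h2
      simpa using this

theorem torsionless_transfer (h : TorsionlessFinite (R ⧸ I)) :
    ∃ (n : ℕ) (X : Fin n → ModuleCat.{u} R), (∀ i, Module.Finite R (X i)) ∧
      ∀ (m : ℕ), IsNoetherian R (Fin m → R ⧸ I) → ∀ (U : Submodule R (Fin m → R ⧸ I)),
        Indec R U → ∃ i, Nonempty (U ≃ₗ[R] X i) := by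
  classical
  obtain ⟨n, X, hX⟩ := h
  let X₀ : Fin n → ModuleCat.{u} R := fun i =>
    (ModuleCat.restrictScalars (Ideal.Quotient.mk I)).obj (X i)
  let X' : Fin n → ModuleCat.{u} R := fun i =>
    if Module.Finite R (X₀ i) then X₀ i else ModuleCat.of R PUnit
  refine ⟨n, X', ?_, ?_⟩
  · intro i
    by_cases hi : Module.Finite R (X₀ i)
    · have : X' i = X₀ i := if_pos hi
      rw [this]; exact hi
    · have : X' i = ModuleCat.of R PUnit := if_neg hi
      rw [this]
      change Module.Finite R PUnit.{u+1}
      infer_instance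
  · intro m hm U hU
    obtain ⟨i, ⟨e⟩⟩ := hX m (upSub I U) (indec_up I U hU)
    let e₀ : U ≃ₗ[R] X₀ i :=
      { toFun := fun x => e (upMap I U x)
        invFun := fun y => (⟨(e.symm y).1, (e.symm y).2⟩ : U)
        left_inv := fun x => by
          have : e.symm (e (upMap I U x)) = upMap I U x := e.symm_apply_apply _
          apply Subtype.ext
          change ((e.symm (e (upMap I U x))) : Fin m → R ⧸ I) = x
          rw [this]; rfl
        right_inv := fun y => by
          change e (e.symm y) = y
          exact e.apply_symm_apply y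
        map_add' := fun x y => by
          change e (upMap I U (x + y)) = e (upMap I U x) + e (upMap I U y)
          rw [map_add, map_add]
        map_smul' := fun r x => by
          change e (upMap I U (r • x)) = (Ideal.Quotient.mk I r) • e (upMap I U x)
          rw [(upMap I U).map_smulₛₗ, map_smul] }
    have hfin : Module.Finite R (X₀ i) := Module.Finite.equiv e₀
    have : X' i = X₀ i := if_pos hfin
    refine ⟨i, ?_⟩
    rw [this]
    exact ⟨e₀⟩

end

end Vale.Agent.P195
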